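import Vale.Agent.P089.Defs
import Vale.Agent.P212.Final

open Vale.Agent.P212 in
theorem Vale.Agent.Results.P212.A_full.result :
    ∃ (X : Type) (_ : MetricSpace X) (_ : BddGeom X),
      (∃ δ : ℝ, 0 < δ ∧ ∀ x y : X, x ≠ y → δ ≤ dist x y) ∧
      ¬ MaxAssemblyRatInjective X EllTwo :=
  main
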